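import Mathlib

/-!
# P157: the Gaussian perceptron, its pressure and the variational formula
-/

namespace Vale.Agent.P157

open MeasureTheory ProbabilityTheory Finset
open scoped BigOperators

/-- The standard Gaussian law on the line. -/
noncomputable def gam : Measure ℝ := gaussianReal 0 1

/-- The law of `M` independent standard Gaussian vectors of dimension `N`. -/
noncomputable def pat (M N : ℕ) : Measure (Fin M → Fin N → ℝ) :=
  Measure.pi fun _ => Measure.pi fun _ => gam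

/-- The Boltzmann weight of the configuration `x`. -/
noncomputable def wgt {M N : ℕ} (f : ℝ → ℝ) (g : Fin M → Fin N → ℝ) (x : Fin N → ℝ) : ℝ :=
  Real.exp (∑ a, f ((∑ i, g a i * x i) / Real.sqrt N))

/-- Expected pressure of the Ising perceptron. -/
noncomputable def pressI (α : ℝ) (f : ℝ → ℝ) (N : ℕ) : ℝ :=
  ∫ g, (1 / (N : ℝ)) * Real.log (𝔼 s : Fin N → Bool, wgt f g fun i => if s i then 1 else -1)
    ∂(pat ⌊α * N⌋₊ N)

/-- Expected pressure of the spherical perceptron. -/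
noncomputable def pressS (α : ℝ) (f : ℝ → ℝ) (N : ℕ) : ℝ :=
  ∫ g, (1 / (N : ℝ)) * Real.log (⨍ u : Metric.sphere (0 : EuclideanSpace ℝ (Fin N)) 1,
      wgt f g (fun i => Real.sqrt N * (u : EuclideanSpace ℝ (Fin N)) i)
        ∂(volume : Measure (EuclideanSpace ℝ (Fin N))).toSphere)
    ∂(pat ⌊α * N⌋₊ N)

/-- The equally spaced exponents `1, 1 - 1/(n+1), ..., 1/(n+1)`. -/
noncomputable def ze (n l : ℕ) : ℝ := 1 - (l : ℝ) / ((n : ℝ) + 1)

/-- The Parisi recursion with exponents `ze n l` and Gaussian increments of variance `v l`. -/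
noncomputable def cas (n : ℕ) (v : ℕ → ℝ) (G : ℝ → ℝ) : ℕ → ℝ → ℝ
  | 0 => G
  | l + 1 => fun x =>
    Real.log (∫ z, Real.exp (ze n l * cas n v G l (x + Real.sqrt (v l) * z)) ∂gam) / ze n l

/-- The value of the recursion, averaged over a last Gaussian of variance `v (n+1)`. -/
noncomputable def Cas (n : ℕ) (v : ℕ → ℝ) (G : ℝ → ℝ) : ℝ :=
  ∫ z, cas n v G (n + 1) (Real.sqrt (v (n + 1)) * z) ∂gam

/-- Increments of a sequence `r 0, ..., r (n+1)`. -/
def vr (n : ℕ) (r : ℕ → ℝ) (l : ℕ) : ℝ := if l ≤ n then r l - r (l + 1) else r l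

/-- The sequence `r 0, ..., r (n+1)` is nonincreasing and nonnegative. -/
def Mono (n : ℕ) (r : ℕ → ℝ) : Prop := (∀ j, j ≤ n → r (j + 1) ≤ r j) ∧ 0 ≤ r (n + 1)

/-- Admissible overlap sequences. -/
def Adm (n : ℕ) (p : ℕ → ℝ) : Prop := p 0 = 1 ∧ Mono n p

/-- The Ising single-spin functional paired with `p`. -/
noncomputable def spinI (n : ℕ) (p q : ℕ → ℝ) : ℝ :=
  Cas n (vr n q) (fun x => Real.log (Real.cosh x)) - q 0 / 2 +
    (∑ j ∈ Icc 1 (n + 1), p j * q j) / (2 * ((n : ℝ) + 1))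

/-- Trial values for the Ising perceptron at depth `n`. -/
def trialI (α : ℝ) (f : ℝ → ℝ) (n : ℕ) : Set ℝ :=
  {t | ∃ (p : ℕ → ℝ) (s : ℝ), Adm n p ∧ (∀ q, Mono n q → spinI n p q ≤ s) ∧
    t = α * Cas n (vr n p) f + s}

/-- The susceptibilities of the sequence `p`. -/
noncomputable def chi (n : ℕ) (p : ℕ → ℝ) (j : ℕ) : ℝ := ∑ l ∈ range j, ze n l * (p l - p (l + 1))

/-- The Crisanti-Sommers entropy term. -/
noncomputable def cs (n : ℕ) (p : ℕ → ℝ) : ℝ :=
  (Real.log (chi n p 1) + ∑ l ∈ Icc 1 n, Real.log (chi n p (l + 1) / chi n p l) / ze n l +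
    p (n + 1) / chi n p (n + 1)) / 2

/-- Trial values for the spherical perceptron at depth `n`. -/
def trialS (α : ℝ) (f : ℝ → ℝ) (n : ℕ) : Set ℝ :=
  {t | ∃ p : ℕ → ℝ, Adm n p ∧ p 1 < 1 ∧ t = α * Cas n (vr n p) f + cs n p}

end Vale.Agent.P157
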